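import Mathlib

open MeasureTheory Set Filter Topology

namespace Vale.Agent.P073

variable {E : Type*} [NormedAddCommGroup E] [InnerProductSpace ℝ E] [FiniteDimensional ℝ E]
  [MeasurableSpace E] [BorelSpace E]

/-- A bounded domain: a nonempty connected bounded open set. -/
def IsBoundedDomain (U : Set E) : Prop :=
  IsOpen U ∧ IsConnected U ∧ Bornology.IsBounded U

/-- Smooth test functions with compact support inside `U`. -/
def IsTestFunction (U : Set E) (φ : E → ℝ) : Prop :=
  ContDiff ℝ (⊤ : ℕ∞) φ ∧ HasCompactSupport φ ∧ tsupport φ ⊆ U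

/-- `Df` is the weak derivative of `f` on `U` (integration by parts against test
functions, in every direction `v`). -/
def IsWeakDerivOn (U : Set E) (f : E → E) (Df : E → E →L[ℝ] E) : Prop :=
  ∀ φ : E → ℝ, IsTestFunction U φ → ∀ v : E,
    ∫ x in U, (fderiv ℝ φ x v) • f x = - ∫ x in U, φ x • Df x v

/-- `f` lies in the Sobolev space of exponent `p` on `U`, with weak derivative `Df`. -/
def MemSobolev (p : ℝ) (U : Set E) (f : E → E) (Df : E → E →L[ℝ] E) : Prop :=
  MemLp f (ENNReal.ofReal p) (volume.restrict U) ∧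
    MemLp Df (ENNReal.ofReal p) (volume.restrict U) ∧ IsWeakDerivOn U f Df

/-- The Euclidean (Frobenius, Hilbert-Schmidt) norm of `A`, computed in an orthonormal basis. -/
noncomputable def frobNorm (A : E →L[ℝ] E) : ℝ :=
  Real.sqrt (∑ i, ‖A (stdOrthonormalBasis ℝ E i)‖ ^ 2)

/-- `f` restricts to a homeomorphism of `U` onto `V`. -/
def IsHomeoOn (U V : Set E) (f : E → E) : Prop :=
  ContinuousOn f U ∧ ∃ g : E → E, ContinuousOn g V ∧ MapsTo f U V ∧ MapsTo g V U ∧
    (∀ x ∈ U, g (f x) = x) ∧ (∀ y ∈ V, f (g y) = y)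

/-- `f` restricts to a smooth diffeomorphism of `U` onto `V` (smooth bijection, smooth inverse). -/
def IsDiffeoOn (U V : Set E) (f : E → E) : Prop :=
  ContDiffOn ℝ (⊤ : ℕ∞) f U ∧ ∃ g : E → E, ContDiffOn ℝ (⊤ : ℕ∞) g V ∧ MapsTo f U V ∧
    MapsTo g V U ∧ (∀ x ∈ U, g (f x) = x) ∧ (∀ y ∈ V, f (g y) = y)

/-- A Sobolev homeomorphism of `U` onto `V` with weak derivative `Df`. -/
def IsSobolevHomeo (p : ℝ) (U V : Set E) (f : E → E) (Df : E → E →L[ℝ] E) : Prop :=
  IsHomeoOn U V f ∧ MemSobolev p U f Df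

/-- `f` is diffeomorphically approximable in the Sobolev norm of exponent `p`: there are
diffeomorphisms of `U` onto the same `V`, each in the Sobolev space, converging to `f`. -/
def DiffeoApproximable (p : ℝ) (U V : Set E) (f : E → E) (Df : E → E →L[ℝ] E) : Prop :=
  ∃ F : ℕ → E → E,
    (∀ j, IsDiffeoOn U V (F j) ∧ MemSobolev p U (F j) (fderiv ℝ (F j))) ∧
    Tendsto (fun j => ∫⁻ x in U, ENNReal.ofReal
      (‖F j x - f x‖ ^ p + frobNorm (fderiv ℝ (F j) x - Df x) ^ p)) atTop (𝓝 0)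

end Vale.Agent.P073
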