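import Mathlib

set_option linter.unusedSectionVars false
set_option linter.unusedVariables false

open MeasureTheory Set Filter Topology
open scoped ENNReal ContDiff

namespace Vale.Agent.P073

variable {E : Type*} [NormedAddCommGroup E] [NormedSpace ℝ E] [FiniteDimensional ℝ E]

lemma exists_avg_mem {w : E → E} (hw : ContDiff ℝ ∞ w) {KK : Set (E →L[ℝ] E)}
    (hconv : Convex ℝ KK) (hclosed : IsClosed KK)
    (hD : ∀ x, (1 : E →L[ℝ] E) + fderiv ℝ w x ∈ KK) (x y : E) :
    ∃ A ∈ KK, A (x - y) = (x - y) + (w x - w y) := by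
  have : CompleteSpace E := FiniteDimensional.complete ℝ E
  set γ : ℝ → E := fun t => y + t • (x - y) with hγ
  have hγc : Continuous γ := by fun_prop
  have hdc : Continuous (fun t => (1 : E →L[ℝ] E) + fderiv ℝ w (γ t)) :=
    continuous_const.add ((hw.continuous_fderiv (by simp)).comp hγc)
  have : IsProbabilityMeasure (volume.restrict (Ioc (0 : ℝ) 1)) := ⟨by simp⟩
  refine ⟨∫ t in (0 : ℝ)..1, ((1 : E →L[ℝ] E) + fderiv ℝ w (γ t)), ?_, ?_⟩
  · rw [intervalIntegral.integral_of_le zero_le_one]
    refine hconv.integral_mem hclosed (Eventually.of_forall fun t => hD _) ?_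
    exact (hdc.intervalIntegrable 0 1).1
  · rw [ContinuousLinearMap.intervalIntegral_apply (hdc.intervalIntegrable 0 1)]
    have hder : ∀ t ∈ uIcc (0 : ℝ) 1,
        HasDerivAt (fun t => γ t + w (γ t))
          (((1 : E →L[ℝ] E) + fderiv ℝ w (γ t)) (x - y)) t := by
      intro t _
      have h1 : HasDerivAt γ (x - y) t := by
        have := ((hasDerivAt_id t).smul_const (x - y)).const_add y
        simp only [one_smul] at this
        exact this
      have h2 : HasFDerivAt w (fderiv ℝ w (γ t)) (γ t) :=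
        ((hw.differentiable (by simp)) (γ t)).hasFDerivAt
      have h3 := h2.comp_hasDerivAt t h1
      have h4 := h1.add h3
      have h5 : ((1 : E →L[ℝ] E) + fderiv ℝ w (γ t)) (x - y)
          = (x - y) + (fderiv ℝ w (γ t)) (x - y) := by simp
      rw [h5]
      exact h4
    have hint : IntervalIntegrable (fun t => ((1 : E →L[ℝ] E) + fderiv ℝ w (γ t)) (x - y))
        volume 0 1 := by
      apply Continuous.intervalIntegrable
      exact hdc.clm_apply continuous_const
    rw [intervalIntegral.integral_eq_sub_of_hasDerivAt hder hint]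
    simp only [hγ]
    simp
    abel

theorem exists_smooth_inverse {w : E → E} (hw : ContDiff ℝ ∞ w) {K' : Set E}
    (hK' : IsCompact K') (hwK : ∀ x, x ∉ K' → w x = 0) {KK : Set (E →L[ℝ] E)}
    (hconv : Convex ℝ KK) (hclosed : IsClosed KK)
    (hinv : ∀ A ∈ KK, ∀ δ : ℝ, 0 < δ → δ ≤ 1 →
      ((1 - δ) • A + δ • (1 : E →L[ℝ] E)).IsInvertible)
    (hD : ∀ x, (1 : E →L[ℝ] E) + fderiv ℝ w x ∈ KK) {δ : ℝ} (hδ0 : 0 < δ) (hδ1 : δ ≤ 1) :
    ∃ ginv : E → E, ContDiff ℝ ∞ ginv ∧ (∀ x, ginv (x + (1 - δ) • w x) = x) ∧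
      (∀ y, ginv y + (1 - δ) • w (ginv y) = y) := by
  have : CompleteSpace E := FiniteDimensional.complete ℝ E
  set g : E → E := fun x => x + (1 - δ) • w x with hg
  have hgs : ContDiff ℝ ∞ g := contDiff_id.add (contDiff_const.smul hw)
  have hgc : Continuous g := hgs.continuous
  have hfd : ∀ x, fderiv ℝ g x
      = (1 - δ) • ((1 : E →L[ℝ] E) + fderiv ℝ w x) + δ • (1 : E →L[ℝ] E) := by
    intro x
    have h2 : HasFDerivAt w (fderiv ℝ w x) x := ((hw.differentiable (by simp)) x).hasFDerivAt
    have h3 : HasFDerivAt g ((ContinuousLinearMap.id ℝ E) + (1 - δ) • fderiv ℝ w x) x :=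
      (hasFDerivAt_id x).add (h2.const_smul (1 - δ))
    rw [h3.fderiv]
    ext v
    simp [sub_smul, smul_add]
    abel
  choose e he using fun x => hinv _ (hD x) δ hδ0 hδ1
  have hstrict : ∀ x, HasStrictFDerivAt g (e x : E →L[ℝ] E) x := by
    intro x
    rw [he x, ← hfd x]
    exact (hgs.contDiffAt).hasStrictFDerivAt (by simp)
  have hopen : IsOpenMap g := isOpenMap_of_hasStrictFDerivAt_equiv hstrict
  have hinj : Function.Injective g := by
    intro x y hxy
    obtain ⟨A, hA, hAxy⟩ := exists_avg_mem hw hconv hclosed hD x y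
    obtain ⟨B, hB⟩ := hinv A hA δ hδ0 hδ1
    have h0 : (B : E →L[ℝ] E) (x - y) = 0 := by
      rw [hB]
      have h1 : g x - g y = 0 := sub_eq_zero.2 hxy
      simp only [add_apply, smul_apply, hAxy, one_apply_eq_self]
      simp only [hg] at h1
      rw [← h1]
      simp only [sub_smul, smul_add, smul_sub, one_smul]
      abel
    have h1 : x - y = 0 := by
      have := B.injective (a₁ := x - y) (a₂ := 0) (by simpa using h0)
      exact this
    exact sub_eq_zero.1 h1
  have hproper : IsProperMap g := by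
    rw [isProperMap_iff_tendsto_cocompact]
    refine ⟨hgc, ?_⟩
    have hev : (fun x => x) =ᶠ[cocompact E] g := by
      have : K'ᶜ ∈ cocompact E := hK'.compl_mem_cocompact
      filter_upwards [this] with x hx
      simp [hg, hwK x hx]
    exact tendsto_id.congr' hev
  have hsurj : Function.Surjective g := by
    have hcl : IsClosed (range g) := hproper.isClosedMap.isClosed_range
    have hop : IsOpen (range g) := hopen.isOpen_range
    have := IsClopen.eq_univ ⟨hcl, hop⟩ (range_nonempty g)
    exact range_eq_univ.1 this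
  let eqv : E ≃ E := Equiv.ofBijective g ⟨hinj, hsurj⟩
  let hom : E ≃ₜ E := eqv.toHomeomorphOfContinuousOpen hgc hopen
  have hsymm : ContDiff ℝ ∞ hom.symm :=
    hom.contDiff_symm (f₀' := e) (fun a => (hstrict a).hasFDerivAt) hgs
  refine ⟨hom.symm, hsymm, fun x => hom.symm_apply_apply x, fun y => hom.apply_symm_apply y⟩

end Vale.Agent.P073
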