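import Mathlib

set_option linter.unusedSectionVars false
set_option linter.unusedVariables false

open MeasureTheory Set Filter Topology ContinuousLinearMap
open scoped ENNReal Convolution

namespace Vale.Agent.P073

variable {E : Type*} [NormedAddCommGroup E] [NormedSpace ℝ E] [FiniteDimensional ℝ E]
  [MeasurableSpace E] [BorelSpace E] {μ : Measure E} [μ.IsAddHaarMeasure]
  {V : Type*} [NormedAddCommGroup V] [NormedSpace ℝ V]

/-- The probability measure with density the normalised bump. -/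
noncomputable def bumpMeasure (μ : Measure E) (φ : ContDiffBump (0 : E)) : Measure E :=
  μ.withDensity (fun t => ENNReal.ofReal (φ.normed μ t))

lemma measurable_bump_density (φ : ContDiffBump (0 : E)) :
    Measurable (fun t => ENNReal.ofReal (φ.normed μ t)) :=
  (φ.continuous_normed.measurable).ennreal_ofReal

instance bumpMeasure_prob (φ : ContDiffBump (0 : E)) : IsProbabilityMeasure (bumpMeasure μ φ) := by
  constructor
  rw [bumpMeasure, withDensity_apply _ MeasurableSet.univ, Measure.restrict_univ,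
    ← ofReal_integral_eq_lintegral_ofReal φ.integrable_normed
      (Eventually.of_forall fun x => φ.nonneg_normed x), φ.integral_normed]
  simp

lemma bumpMeasure_ac (φ : ContDiffBump (0 : E)) : bumpMeasure μ φ ≪ μ :=
  withDensity_absolutelyContinuous _ _

lemma aesm_sub_left {h : E → V} (hh : AEStronglyMeasurable h μ) (x : E) :
    AEStronglyMeasurable (fun t => h (x - t)) μ :=
  hh.comp_quasiMeasurePreserving (quasiMeasurePreserving_sub_left_of_right_invariant μ x)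

lemma lintegral_bumpMeasure (φ : ContDiffBump (0 : E)) (F : E → ℝ≥0∞) :
    ∫⁻ t, F t ∂(bumpMeasure μ φ) = ∫⁻ t, ENNReal.ofReal (φ.normed μ t) * F t ∂μ := by
  rw [bumpMeasure, lintegral_withDensity_eq_lintegral_mul_non_measurable₀ _
    (measurable_bump_density φ).aemeasurable (Eventually.of_forall fun x => ENNReal.ofReal_lt_top)]
  rfl

lemma enorm_conv_le (φ : ContDiffBump (0 : E)) {h : E → V} (x : E) :
    ‖(φ.normed μ ⋆[lsmul ℝ ℝ, μ] h) x‖ₑ ≤ ∫⁻ t, ‖h (x - t)‖ₑ ∂(bumpMeasure μ φ) := by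
  rw [lintegral_bumpMeasure, convolution_def]
  refine (enorm_integral_le_lintegral_enorm _).trans (le_of_eq ?_)
  refine lintegral_congr fun t => ?_
  simp only [lsmul_apply, enorm_smul]
  congr 1
  rw [Real.enorm_eq_ofReal (φ.nonneg_normed t)]

lemma enorm_conv_rpow_le (φ : ContDiffBump (0 : E)) {h : E → V} (hh : AEStronglyMeasurable h μ)
    {q : ℝ} (hq : 1 ≤ q) (x : E) :
    ‖(φ.normed μ ⋆[lsmul ℝ ℝ, μ] h) x‖ₑ ^ q ≤ ∫⁻ t, ‖h (x - t)‖ₑ ^ q ∂(bumpMeasure μ φ) := by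
  have hq0 : 0 < q := by linarith
  have hm : AEStronglyMeasurable (fun t => h (x - t)) (bumpMeasure μ φ) :=
    (aesm_sub_left hh x).mono_ac (bumpMeasure_ac φ)
  have h1 : eLpNorm (fun t => h (x - t)) 1 (bumpMeasure μ φ)
      ≤ eLpNorm (fun t => h (x - t)) (ENNReal.ofReal q) (bumpMeasure μ φ) :=
    eLpNorm_le_eLpNorm_of_exponent_le (by simpa using ENNReal.ofReal_le_ofReal hq) hm
  rw [eLpNorm_one_eq_lintegral_enorm,
    eLpNorm_eq_lintegral_rpow_enorm_toReal (by simpa using hq0) ENNReal.ofReal_ne_top,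
    ENNReal.toReal_ofReal hq0.le] at h1
  calc ‖(φ.normed μ ⋆[lsmul ℝ ℝ, μ] h) x‖ₑ ^ q
      ≤ ((∫⁻ t, ‖h (x - t)‖ₑ ^ q ∂(bumpMeasure μ φ)) ^ (1 / q)) ^ q :=
        ENNReal.rpow_le_rpow ((enorm_conv_le φ x).trans h1) hq0.le
    _ = _ := by rw [← ENNReal.rpow_mul, one_div, inv_mul_cancel₀ hq0.ne', ENNReal.rpow_one]

lemma lintegral_conv_rpow_le (φ : ContDiffBump (0 : E)) {h : E → V}
    (hh : AEStronglyMeasurable h μ) {q : ℝ} (hq : 1 ≤ q) :
    ∫⁻ x, ‖(φ.normed μ ⋆[lsmul ℝ ℝ, μ] h) x‖ₑ ^ q ∂μ ≤ ∫⁻ x, ‖h x‖ₑ ^ q ∂μ := by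
  have hm : AEMeasurable (Function.uncurry fun x t => ‖h (x - t)‖ₑ ^ q)
      (μ.prod (bumpMeasure μ φ)) := by
    have h1 : AEStronglyMeasurable (fun z : E × E => h (z.1 - z.2)) (μ.prod μ) :=
      hh.comp_quasiMeasurePreserving (quasiMeasurePreserving_sub μ μ)
    have h2 : AEStronglyMeasurable (fun z : E × E => h (z.1 - z.2))
        (μ.prod (bumpMeasure μ φ)) :=
      h1.mono_ac (Measure.AbsolutelyContinuous.rfl.prod (bumpMeasure_ac φ))
    exact (h2.enorm).pow_const q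
  calc ∫⁻ x, ‖(φ.normed μ ⋆[lsmul ℝ ℝ, μ] h) x‖ₑ ^ q ∂μ
      ≤ ∫⁻ x, ∫⁻ t, ‖h (x - t)‖ₑ ^ q ∂(bumpMeasure μ φ) ∂μ :=
        lintegral_mono fun x => enorm_conv_rpow_le φ hh hq x
    _ = ∫⁻ t, ∫⁻ x, ‖h (x - t)‖ₑ ^ q ∂μ ∂(bumpMeasure μ φ) := lintegral_lintegral_swap hm
    _ = ∫⁻ t, ∫⁻ x, ‖h x‖ₑ ^ q ∂μ ∂(bumpMeasure μ φ) := by
        refine lintegral_congr fun t => ?_
        exact lintegral_sub_right_eq_self (fun x => ‖h x‖ₑ ^ q) t
    _ = ∫⁻ x, ‖h x‖ₑ ^ q ∂μ := by simp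

theorem eLpNorm_conv_le (φ : ContDiffBump (0 : E)) {h : E → V}
    (hh : AEStronglyMeasurable h μ) {q : ℝ} (hq : 1 ≤ q) :
    eLpNorm (φ.normed μ ⋆[lsmul ℝ ℝ, μ] h) (ENNReal.ofReal q) μ
      ≤ eLpNorm h (ENNReal.ofReal q) μ := by
  have hq0 : 0 < q := by linarith
  rw [eLpNorm_eq_lintegral_rpow_enorm_toReal (by simpa using hq0) ENNReal.ofReal_ne_top,
    eLpNorm_eq_lintegral_rpow_enorm_toReal (by simpa using hq0) ENNReal.ofReal_ne_top,
    ENNReal.toReal_ofReal hq0.le]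
  exact ENNReal.rpow_le_rpow (lintegral_conv_rpow_le φ hh hq) (by positivity)

lemma eLpNorm_conv_sub_le_of_continuous [CompleteSpace V] {k : E → V} (hk : Continuous k)
    (hks : HasCompactSupport k) {q : ℝ} (hq : 1 ≤ q) {ε : ℝ≥0∞} (hε : ε ≠ 0) :
    ∃ δ > 0, ∀ φ : ContDiffBump (0 : E), φ.rOut < δ →
      eLpNorm ((φ.normed μ ⋆[lsmul ℝ ℝ, μ] k) - k) (ENNReal.ofReal q) μ ≤ ε := by
  have hq0 : 0 < q := by linarith
  set S := Metric.cthickening 1 (tsupport k) with hS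
  have hScomp : IsCompact S := hks.isCompact.cthickening
  have hSfin : μ S ≠ ∞ := hScomp.measure_lt_top.ne
  have hc : (μ S) ^ (ENNReal.ofReal q).toReal⁻¹ ≠ ∞ :=
    ENNReal.rpow_ne_top_of_nonneg (by positivity) hSfin
  obtain ⟨n, hn0, hn⟩ := ENNReal.exists_nnreal_pos_mul_lt hc hε
  have huc : UniformContinuous k := hks.uniformContinuous_of_continuous hk
  obtain ⟨δ, hδ0, hδ⟩ := Metric.uniformContinuous_iff.1 huc n (by exact_mod_cast hn0)
  refine ⟨min δ 1, lt_min hδ0 one_pos, fun φ hφ => ?_⟩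
  have hφδ : φ.rOut < δ := lt_of_lt_of_le hφ (min_le_left _ _)
  have hφ1 : φ.rOut < 1 := lt_of_lt_of_le hφ (min_le_right _ _)
  have hbound : ∀ x, ‖((φ.normed μ ⋆[lsmul ℝ ℝ, μ] k) - k) x‖ ≤ n := by
    intro x
    rw [Pi.sub_apply, ← dist_eq_norm]
    refine φ.dist_normed_convolution_le hk.aestronglyMeasurable fun y hy => ?_
    exact (hδ (lt_trans (Metric.mem_ball.1 hy) hφδ)).le
  have hsupp : Function.support ((φ.normed μ ⋆[lsmul ℝ ℝ, μ] k) - k) ⊆ S := by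
    intro x hx
    by_contra hxS
    apply hx
    have hz : ∀ y ∈ Metric.ball x φ.rOut, k y = 0 := by
      intro y hy
      by_contra hy0
      apply hxS
      have hyk : y ∈ tsupport k := subset_tsupport _ hy0
      refine Metric.mem_cthickening_of_dist_le x y 1 _ hyk ?_
      rw [dist_comm]
      exact ((Metric.mem_ball.1 hy).trans hφ1).le
    have hx0 : k x = 0 := hz x (Metric.mem_ball_self φ.rOut_pos)
    rw [Pi.sub_apply, φ.normed_convolution_eq_right (fun y hy => by rw [hz y hy, hx0]), sub_self]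
  rw [← eLpNorm_restrict_eq_of_support_subset hsupp]
  refine (eLpNorm_le_of_ae_bound (Eventually.of_forall hbound)).trans ?_
  rw [Measure.restrict_apply_univ, mul_comm]
  simpa using hn.le

lemma continuous_conv [CompleteSpace V] (φ : ContDiffBump (0 : E)) {h : E → V}
    (hh : LocallyIntegrable h μ) : Continuous (φ.normed μ ⋆[lsmul ℝ ℝ, μ] h) :=
  φ.hasCompactSupport_normed.continuous_convolution_left _ φ.continuous_normed hh

lemma convExists [CompleteSpace V] (φ : ContDiffBump (0 : E)) {h : E → V}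
    (hh : LocallyIntegrable h μ) : ConvolutionExists (φ.normed μ) h (lsmul ℝ ℝ) μ :=
  φ.hasCompactSupport_normed.convolutionExists_left _ φ.continuous_normed hh

theorem exists_delta_eLpNorm_conv_sub_le [CompleteSpace V] {h : E → V} {q : ℝ} (hq : 1 ≤ q)
    (hh : MemLp h (ENNReal.ofReal q) μ) {ε : ℝ≥0∞} (hε : ε ≠ 0) :
    ∃ δ > 0, ∀ φ : ContDiffBump (0 : E), φ.rOut < δ →
      eLpNorm ((φ.normed μ ⋆[lsmul ℝ ℝ, μ] h) - h) (ENNReal.ofReal q) μ ≤ ε := by
  have hq1 : (1 : ℝ≥0∞) ≤ ENNReal.ofReal q := by simpa using ENNReal.ofReal_le_ofReal hq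
  have hε3 : ε / 3 ≠ 0 := by simp [hε]
  obtain ⟨k, hks, hkε, hkc, hkL⟩ :=
    hh.exists_hasCompactSupport_eLpNorm_sub_le ENNReal.ofReal_ne_top hε3
  obtain ⟨δ, hδ0, hδ⟩ := eLpNorm_conv_sub_le_of_continuous (μ := μ) hkc hks hq hε3
  refine ⟨δ, hδ0, fun φ hφ => ?_⟩
  have hhl : LocallyIntegrable h μ := hh.locallyIntegrable hq1
  have hkl : LocallyIntegrable k μ := hkc.locallyIntegrable
  have hsub : LocallyIntegrable (h - k) μ := hhl.sub hkl
  have heq : (φ.normed μ ⋆[lsmul ℝ ℝ, μ] h) - h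
      = (φ.normed μ ⋆[lsmul ℝ ℝ, μ] (h - k)) + ((φ.normed μ ⋆[lsmul ℝ ℝ, μ] k) - k) - (h - k) := by
    have : (φ.normed μ ⋆[lsmul ℝ ℝ, μ] h)
        = (φ.normed μ ⋆[lsmul ℝ ℝ, μ] (h - k)) + (φ.normed μ ⋆[lsmul ℝ ℝ, μ] k) := by
      have := ConvolutionExists.distrib_add (convExists (μ := μ) φ hsub) (convExists (μ := μ) φ hkl)
      rw [← this, sub_add_cancel]
    rw [this]; abel
  have hm1 : AEStronglyMeasurable (φ.normed μ ⋆[lsmul ℝ ℝ, μ] (h - k)) μ :=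
    (continuous_conv φ hsub).aestronglyMeasurable
  have hm2 : AEStronglyMeasurable ((φ.normed μ ⋆[lsmul ℝ ℝ, μ] k) - k) μ :=
    ((continuous_conv φ hkl).sub hkc).aestronglyMeasurable
  have hm3 : AEStronglyMeasurable (h - k) μ := hh.1.sub hkL.1
  rw [heq]
  calc eLpNorm ((φ.normed μ ⋆[lsmul ℝ ℝ, μ] (h - k)) + ((φ.normed μ ⋆[lsmul ℝ ℝ, μ] k) - k)
        - (h - k)) (ENNReal.ofReal q) μ
      ≤ eLpNorm ((φ.normed μ ⋆[lsmul ℝ ℝ, μ] (h - k)) + ((φ.normed μ ⋆[lsmul ℝ ℝ, μ] k) - k))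
          (ENNReal.ofReal q) μ + eLpNorm (h - k) (ENNReal.ofReal q) μ :=
        eLpNorm_sub_le (hm1.add hm2) hm3 hq1
    _ ≤ (eLpNorm (φ.normed μ ⋆[lsmul ℝ ℝ, μ] (h - k)) (ENNReal.ofReal q) μ
          + eLpNorm ((φ.normed μ ⋆[lsmul ℝ ℝ, μ] k) - k) (ENNReal.ofReal q) μ)
          + eLpNorm (h - k) (ENNReal.ofReal q) μ := by
        gcongr
        exact eLpNorm_add_le hm1 hm2 hq1
    _ ≤ (ε / 3 + ε / 3) + ε / 3 := by
        gcongr
        · exact (eLpNorm_conv_le φ hm3 hq).trans hkε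
        · exact hδ φ hφ
    _ = ε := by
        exact ENNReal.add_thirds ε

end Vale.Agent.P073
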