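import Mathlib
import Vale.Agent.P073.Mollify

set_option linter.unusedSectionVars false
set_option linter.unusedVariables false

open MeasureTheory Set Filter Topology ContinuousLinearMap
open scoped ENNReal Convolution ContDiff

namespace Vale.Agent.P073

variable {E : Type*} [NormedAddCommGroup E] [NormedSpace ℝ E] [FiniteDimensional ℝ E]
  [MeasurableSpace E] [BorelSpace E] {μ : Measure E} [μ.IsAddHaarMeasure]

/-- whole-space form of the weak derivative identity against test functions supported in `U` -/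
def WeakOn (μ : Measure E) (U : Set E) (u : E → E) (H : E → E →L[ℝ] E) : Prop :=
  ∀ ψ : E → ℝ, ContDiff ℝ ∞ ψ → HasCompactSupport ψ → tsupport ψ ⊆ U → ∀ v : E,
    ∫ x, (fderiv ℝ ψ x v) • u x ∂μ = - ∫ x, ψ x • H x v ∂μ

lemma ae_eq_zero_off_compact {U K : Set E} (hU : IsOpen U) (hK : IsCompact K)
    {u : E → E} {H : E → E →L[ℝ] E} (hu0 : ∀ x, x ∉ K → u x = 0)
    (hH0 : ∀ x, x ∉ U → H x = 0) (hHi : LocallyIntegrable H μ) (hw : WeakOn μ U u H) :
    ∀ᵐ x ∂μ, x ∉ K → H x = 0 := by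
  have hopen : IsOpen (U \ K) := hU.sdiff hK.isClosed
  have key := hopen.ae_eq_zero_of_integral_contDiff_smul_eq_zero (μ := μ) (f := H)
    (hHi.locallyIntegrableOn _) ?_
  · filter_upwards [key] with x hx hxK
    by_cases hxU : x ∈ U
    · exact hx ⟨hxU, hxK⟩
    · exact hH0 x hxU
  · intro ψ hψ hψc hψs
    have hint : Integrable (fun x => ψ x • H x) μ :=
      hHi.integrable_smul_left_of_hasCompactSupport hψ.continuous hψc
    ext v
    rw [ContinuousLinearMap.integral_apply hint]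
    have h1 := hw ψ hψ hψc (hψs.trans sdiff_subset) v
    have h2 : ∫ x, (fderiv ℝ ψ x v) • u x ∂μ = 0 := by
      apply integral_eq_zero_of_ae
      refine Eventually.of_forall fun x => ?_
      by_cases hxK : x ∈ K
      · have : x ∉ tsupport ψ := fun hx => (hψs hx).2 hxK
        simp [fderiv_of_notMem_tsupport ℝ this]
      · simp [hu0 x hxK]
    rw [h2] at h1
    simpa using (neg_eq_zero.1 h1.symm)

lemma weak_of_disjoint {U K : Set E} (hU : IsOpen U) (hK : IsCompact K)
    {u : E → E} {H : E → E →L[ℝ] E} (hu0 : ∀ x, x ∉ K → u x = 0)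
    (hH0 : ∀ x, x ∉ U → H x = 0) (hHi : LocallyIntegrable H μ) (hw : WeakOn μ U u H)
    {ψ : E → ℝ} (hψ : ContDiff ℝ ∞ ψ) (hψc : HasCompactSupport ψ)
    (hψs : tsupport ψ ⊆ U ∨ Disjoint (tsupport ψ) K) (v : E) :
    ∫ x, (fderiv ℝ ψ x v) • u x ∂μ = - ∫ x, ψ x • H x v ∂μ := by
  rcases hψs with hψs | hψs
  · exact hw ψ hψ hψc hψs v
  · have h2 : ∫ x, (fderiv ℝ ψ x v) • u x ∂μ = 0 := by
      apply integral_eq_zero_of_ae
      refine Eventually.of_forall fun x => ?_
      by_cases hxK : x ∈ K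
      · have : x ∉ tsupport ψ := fun hx => (Set.disjoint_left.1 hψs hx) hxK
        simp [fderiv_of_notMem_tsupport ℝ this]
      · simp [hu0 x hxK]
    have h3 : ∫ x, ψ x • H x v ∂μ = 0 := by
      apply integral_eq_zero_of_ae
      filter_upwards [ae_eq_zero_off_compact hU hK hu0 hH0 hHi hw] with x hx
      by_cases hxK : x ∈ K
      · have : x ∉ tsupport ψ := fun hx => (Set.disjoint_left.1 hψs hx) hxK
        simp [image_eq_zero_of_notMem_tsupport this]
      · simp [hx hxK]
    rw [h2, h3, neg_zero]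

lemma hasFDerivAt_conv {U K : Set E} (hU : IsOpen U) (hK : IsCompact K)
    {u : E → E} {H : E → E →L[ℝ] E} (hu0 : ∀ x, x ∉ K → u x = 0) (huc : Continuous u)
    (hH0 : ∀ x, x ∉ U → H x = 0) (hHi : LocallyIntegrable H μ) (hw : WeakOn μ U u H)
    {r : ℝ} (hr : Metric.cthickening (2 * r) K ⊆ U) (φ : ContDiffBump (0 : E))
    (hφ : φ.rOut ≤ r) (x : E) :
    HasFDerivAt (φ.normed μ ⋆[lsmul ℝ ℝ, μ] u) ((φ.normed μ ⋆[lsmul ℝ ℝ, μ] H) x) x := by
  have h0 := HasCompactSupport.hasFDerivAt_convolution_left (μ := μ) (lsmul ℝ ℝ : ℝ →L[ℝ] E →L[ℝ] E)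
    (φ.hasCompactSupport_normed (μ := μ)) (φ.contDiff_normed (n := 1)) huc.locallyIntegrable x
  convert h0 using 1
  set φn := φ.normed μ with hφn
  have hφs : ContDiff ℝ ∞ φn := φ.contDiff_normed
  ext v
  have hi1 : Integrable (fun t => φn t • H (x - t)) μ := convExists φ hHi x
  have hi2 : Integrable (fun t => (precompL E (lsmul ℝ ℝ : ℝ →L[ℝ] E →L[ℝ] E)) (fderiv ℝ φn t)
      (u (x - t))) μ :=
    (φ.hasCompactSupport_normed.fderiv ℝ).convolutionExists_left _
      (hφs.continuous_fderiv (by simp)) huc.locallyIntegrable x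
  rw [convolution_def, convolution_def, ContinuousLinearMap.integral_apply hi2]
  simp only [lsmul_apply]
  rw [ContinuousLinearMap.integral_apply hi1]
  simp only [precompL_apply, lsmul_apply, smul_apply]
  set ψ : E → ℝ := fun y => φn (x - y) with hψdef
  have hψs : ContDiff ℝ ∞ ψ := hφs.comp (contDiff_const.sub contDiff_id)
  have hψeq : ψ = φn ∘ (Homeomorph.subLeft x) := rfl
  have hψc : HasCompactSupport ψ := by
    rw [hψeq]; exact φ.hasCompactSupport_normed.comp_homeomorph _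
  have hψt : tsupport ψ = Metric.closedBall x φ.rOut := by
    rw [hψeq, tsupport_comp_eq_preimage, hφn, φ.tsupport_normed_eq]
    ext y
    simp [dist_eq_norm, norm_sub_rev]
  have hψd : ∀ y, fderiv ℝ ψ y v = - fderiv ℝ φn (x - y) v := by
    intro y
    have h1 : HasFDerivAt φn (fderiv ℝ φn (x - y)) (x - y) :=
      ((hφs.differentiable (by simp)) _).hasFDerivAt
    have h2 : HasFDerivAt (fun y : E => x - y) (- ContinuousLinearMap.id ℝ E) y :=
      (hasFDerivAt_id y).const_sub x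
    have h3 := h1.comp y h2
    have h4 : fderiv ℝ ψ y = (fderiv ℝ φn (x - y)).comp (- ContinuousLinearMap.id ℝ E) := h3.fderiv
    rw [h4]; simp
  have hcase : tsupport ψ ⊆ U ∨ Disjoint (tsupport ψ) K := by
    by_cases hd : Disjoint (tsupport ψ) K
    · exact Or.inr hd
    · left
      rw [Set.not_disjoint_iff] at hd
      obtain ⟨y, hy1, hy2⟩ := hd
      rw [hψt] at hy1 ⊢
      intro z hz
      apply hr
      refine Metric.mem_cthickening_of_dist_le z y _ K hy2 ?_
      have h1 := Metric.mem_closedBall.1 hz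
      have h2 := Metric.mem_closedBall.1 hy1
      calc dist z y ≤ dist z x + dist x y := dist_triangle _ _ _
        _ ≤ φ.rOut + φ.rOut := by rw [dist_comm x y]; exact add_le_add h1 h2
        _ ≤ 2 * r := by linarith
  have hmain := weak_of_disjoint hU hK hu0 hH0 hHi hw hψs hψc hcase v
  have e1 : ∫ t, φn t • (H (x - t)) v ∂μ = ∫ y, ψ y • (H y) v ∂μ := by
    rw [← integral_sub_left_eq_self (fun y => ψ y • (H y) v) μ x]
    simp [hψdef]
  have e2 : ∫ t, (fderiv ℝ φn t) v • u (x - t) ∂μ = - ∫ y, (fderiv ℝ ψ y v) • u y ∂μ := by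
    rw [← integral_sub_left_eq_self (fun y => (fderiv ℝ ψ y v) • u y) μ x, ← integral_neg]
    refine integral_congr_ae (Eventually.of_forall fun t => ?_)
    simp [hψd]
  rw [e1, e2, hmain, neg_neg]

lemma one_add_conv_mem {H : E → E →L[ℝ] E} (hHi : LocallyIntegrable H μ)
    {KK : Set (E →L[ℝ] E)} (hconv : Convex ℝ KK) (hclosed : IsClosed KK)
    (hmem : ∀ᵐ y ∂μ, (1 : E →L[ℝ] E) + H y ∈ KK) (φ : ContDiffBump (0 : E)) (x : E) :
    (1 : E →L[ℝ] E) + (φ.normed μ ⋆[lsmul ℝ ℝ, μ] H) x ∈ KK := by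
  have hlt : ∀ᵐ t ∂μ, ENNReal.ofReal (φ.normed μ t) < (⊤ : ℝ≥0∞) :=
    Eventually.of_forall fun t => ENNReal.ofReal_lt_top
  have hi1 : Integrable (fun t => φ.normed μ t • H (x - t)) μ := convExists φ hHi x
  have hi : Integrable (fun t => H (x - t)) (bumpMeasure μ φ) := by
    rw [bumpMeasure, integrable_withDensity_iff_integrable_smul' (measurable_bump_density φ) hlt]
    refine hi1.congr (Eventually.of_forall fun t => ?_)
    simp [ENNReal.toReal_ofReal (φ.nonneg_normed t)]
  have e1 : (φ.normed μ ⋆[lsmul ℝ ℝ, μ] H) x = ∫ t, H (x - t) ∂(bumpMeasure μ φ) := by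
    rw [bumpMeasure, integral_withDensity_eq_integral_toReal_smul (measurable_bump_density φ) hlt,
      convolution_def]
    refine integral_congr_ae (Eventually.of_forall fun t => ?_)
    simp [ENNReal.toReal_ofReal (φ.nonneg_normed t)]
  have e2 : (1 : E →L[ℝ] E) + (φ.normed μ ⋆[lsmul ℝ ℝ, μ] H) x
      = ∫ t, ((1 : E →L[ℝ] E) + H (x - t)) ∂(bumpMeasure μ φ) := by
    rw [integral_add (integrable_const _) hi, e1]
    simp
  rw [e2]
  refine hconv.integral_mem hclosed ?_ ((integrable_const _).add hi)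
  have h1 : ∀ᵐ t ∂μ, (1 : E →L[ℝ] E) + H (x - t) ∈ KK :=
    (quasiMeasurePreserving_sub_left_of_right_invariant μ x).ae hmem
  exact (bumpMeasure_ac φ).ae_le h1

lemma conv_eq_zero_off {K : Set E} {u : E → E} (hu0 : ∀ x, x ∉ K → u x = 0)
    (φ : ContDiffBump (0 : E)) {r : ℝ} (hφ : φ.rOut ≤ r) {x : E}
    (hx : x ∉ Metric.cthickening r K) : (φ.normed μ ⋆[lsmul ℝ ℝ, μ] u) x = 0 := by
  have hz : ∀ y ∈ Metric.ball x φ.rOut, u y = 0 := by
    intro y hy
    apply hu0
    intro hyK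
    apply hx
    refine Metric.mem_cthickening_of_dist_le x y r _ hyK ?_
    rw [dist_comm]
    exact ((Metric.mem_ball.1 hy).le).trans hφ
  have hx0 : u x = 0 := hz x (Metric.mem_ball_self φ.rOut_pos)
  rw [φ.normed_convolution_eq_right (fun y hy => by rw [hz y hy, hx0]), hx0]

end Vale.Agent.P073
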