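import Mathlib
import Vale.Agent.P073.Defs
import Vale.Agent.P073.Mollify
import Vale.Agent.P073.Weak
import Vale.Agent.P073.Diffeo

set_option linter.unusedSectionVars false
set_option linter.unusedVariables false

open MeasureTheory Set Filter Topology ContinuousLinearMap
open scoped ENNReal Convolution ContDiff

namespace Vale.Agent.P073

variable {E : Type*} [NormedAddCommGroup E] [InnerProductSpace ℝ E] [FiniteDimensional ℝ E]
  [MeasurableSpace E] [BorelSpace E]

/-- the constant comparing the Frobenius norm with the operator norm -/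
noncomputable def frobC (E : Type*) [NormedAddCommGroup E] [InnerProductSpace ℝ E]
    [FiniteDimensional ℝ E] : ℝ := Real.sqrt (Module.finrank ℝ E)

lemma frobC_nonneg : 0 ≤ frobC E := Real.sqrt_nonneg _

lemma frobNorm_le (A : E →L[ℝ] E) : frobNorm A ≤ frobC E * ‖A‖ := by
  unfold frobNorm frobC
  have h1 : ∀ i, ‖A (stdOrthonormalBasis ℝ E i)‖ ^ 2 ≤ ‖A‖ ^ 2 := by
    intro i
    have h2 : ‖A (stdOrthonormalBasis ℝ E i)‖ ≤ ‖A‖ := by
      calc ‖A (stdOrthonormalBasis ℝ E i)‖ ≤ ‖A‖ * ‖stdOrthonormalBasis ℝ E i‖ := A.le_opNorm _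
        _ = ‖A‖ := by simp
    gcongr
  have h3 : ∑ i, ‖A (stdOrthonormalBasis ℝ E i)‖ ^ 2 ≤ (Module.finrank ℝ E : ℝ) * ‖A‖ ^ 2 := by
    calc ∑ i, ‖A (stdOrthonormalBasis ℝ E i)‖ ^ 2
        ≤ ∑ i : Fin (Module.finrank ℝ E), ‖A‖ ^ 2 := Finset.sum_le_sum fun i _ => h1 i
      _ = (Module.finrank ℝ E : ℝ) * ‖A‖ ^ 2 := by simp
  calc Real.sqrt _ ≤ Real.sqrt ((Module.finrank ℝ E : ℝ) * ‖A‖ ^ 2) := Real.sqrt_le_sqrt h3
    _ = Real.sqrt (Module.finrank ℝ E) * ‖A‖ := by
        rw [Real.sqrt_mul (by positivity), Real.sqrt_sq (norm_nonneg _)]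

lemma frobNorm_nonneg (A : E →L[ℝ] E) : 0 ≤ frobNorm A := Real.sqrt_nonneg _

/-- A globally smooth map lies in the Sobolev space of every bounded open set. -/
lemma memSobolev_of_smooth {p : ℝ} (hp : 1 ≤ p) {U : Set E} (hU : IsOpen U)
    (hUb : Bornology.IsBounded U) {F : E → E} (hF : ContDiff ℝ ∞ F) :
    MemSobolev p U F (fderiv ℝ F) := by
  have hfin : IsFiniteMeasure (volume.restrict U) :=
    ⟨by rw [Measure.restrict_apply_univ]; exact hUb.measure_lt_top⟩
  have hcomp : IsCompact (closure U) := hUb.isCompact_closure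
  have hbd : ∀ {W : Type _} [NormedAddCommGroup W] (G : E → W), Continuous G →
      MemLp G (ENNReal.ofReal p) (volume.restrict U) := by
    intro W _ G hG
    obtain ⟨C, hC⟩ := hcomp.exists_bound_of_continuousOn hG.continuousOn
    refine MemLp.of_bound hG.aestronglyMeasurable C ?_
    rw [ae_restrict_iff' hU.measurableSet]
    exact Eventually.of_forall fun x hx => hC x (subset_closure hx)
  refine ⟨hbd F hF.continuous, hbd _ (hF.continuous_fderiv (by simp)), ?_⟩
  intro φ ⟨hφ, hφc, hφs⟩ v
  have hz : ∀ x, x ∉ U → φ x = 0 := fun x hx =>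
    image_eq_zero_of_notMem_tsupport fun h => hx (hφs h)
  have hz' : ∀ x, x ∉ U → fderiv ℝ φ x = 0 := fun x hx =>
    fderiv_of_notMem_tsupport ℝ fun h => hx (hφs h)
  rw [setIntegral_eq_integral_of_forall_compl_eq_zero (fun x hx => by simp [hz' x hx]),
    setIntegral_eq_integral_of_forall_compl_eq_zero (fun x hx => by simp [hz x hx])]
  have hφ1 : Continuous fun x => fderiv ℝ φ x v :=
    (hφ.continuous_fderiv (by simp)).clm_apply continuous_const
  have hF1 : Continuous fun x => fderiv ℝ F x v :=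
    (hF.continuous_fderiv (by simp)).clm_apply continuous_const
  have hφ1c : HasCompactSupport fun x => fderiv ℝ φ x v := by
    have := hφc.fderiv ℝ
    exact this.comp_left (g := fun L : E →L[ℝ] ℝ => L v) (by simp)
  have := integral_smul_fderiv_eq_neg_fderiv_smul_of_integrable (μ := (volume : Measure E))
    (f := φ) (g := F) (v := v)
    ((hφ1.smul hF.continuous).integrable_of_hasCompactSupport hφ1c.smul_right)
    ((hφ.continuous.smul hF1).integrable_of_hasCompactSupport hφc.smul_right)
    ((hφ.continuous.smul hF.continuous).integrable_of_hasCompactSupport hφc.smul_right)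
    (fun x _ => (hφ.differentiable (by simp)) x) (fun x _ => (hF.differentiable (by simp)) x)
  rw [this, neg_neg]

/-- displacement, extended by zero -/
noncomputable def disp (U : Set E) (f : E → E) : E → E :=
  U.indicator fun x => f x - x

/-- derivative of the displacement, extended by zero -/
noncomputable def dispD (U : Set E) (Df : E → E →L[ℝ] E) : E → E →L[ℝ] E :=
  U.indicator fun x => Df x - 1

lemma disp_eq_zero {U K : Set E} {f : E → E} (hid : ∀ x ∈ U \ K, f x = x) (x : E)
    (hx : x ∉ K) : disp U f x = 0 := by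
  unfold disp
  by_cases hxU : x ∈ U
  · rw [indicator_of_mem hxU, hid x ⟨hxU, hx⟩, sub_self]
  · exact indicator_of_notMem hxU _

lemma disp_continuous {U K : Set E} (hU : IsOpen U) (hK : IsCompact K) (hKU : K ⊆ U)
    {f : E → E} (hf : ContinuousOn f U) (hid : ∀ x ∈ U \ K, f x = x) :
    Continuous (disp U f) := by
  rw [continuous_iff_continuousAt]
  intro x
  by_cases hxU : x ∈ U
  · have h1 : ContinuousAt (fun x => f x - x) x :=
      (hf.continuousAt (hU.mem_nhds hxU)).sub continuousAt_id
    refine h1.congr ?_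
    filter_upwards [hU.mem_nhds hxU] with y hy
    exact (indicator_of_mem hy _).symm
  · have hxK : x ∉ K := fun h => hxU (hKU h)
    have h1 : ContinuousAt (fun _ : E => (0 : E)) x := continuousAt_const
    refine h1.congr ?_
    filter_upwards [hK.isClosed.isOpen_compl.mem_nhds hxK] with y hy
    exact (disp_eq_zero hid y hy).symm

lemma dispD_memLp {p : ℝ} {U : Set E} (hU : IsOpen U) (hUb : Bornology.IsBounded U)
    {Df : E → E →L[ℝ] E} (hDf : MemLp Df (ENNReal.ofReal p) (volume.restrict U)) :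
    MemLp (dispD U Df) (ENNReal.ofReal p) volume := by
  have hfin : IsFiniteMeasure (volume.restrict U) :=
    ⟨by rw [Measure.restrict_apply_univ]; exact hUb.measure_lt_top⟩
  unfold dispD
  exact (memLp_indicator_iff_restrict hU.measurableSet).2 (hDf.sub (memLp_const _))

lemma dispD_mem {U : Set E} (hU : IsOpen U) {Df : E → E →L[ℝ] E}
    {KK : Set (E →L[ℝ] E)} (h1 : (1 : E →L[ℝ] E) ∈ KK)
    (hmem : ∀ᵐ x ∂(volume.restrict U), Df x ∈ KK) :
    ∀ᵐ y ∂(volume : Measure E), (1 : E →L[ℝ] E) + dispD U Df y ∈ KK := by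
  rw [ae_restrict_iff' hU.measurableSet] at hmem
  filter_upwards [hmem] with y hy
  unfold dispD
  by_cases hyU : y ∈ U
  · rw [indicator_of_mem hyU]; simpa using hy hyU
  · rw [indicator_of_notMem hyU]; simpa using h1

lemma disp_weakOn {p : ℝ} (hp : 1 ≤ p) {U : Set E} (hU : IsOpen U)
    (hUb : Bornology.IsBounded U) {f : E → E} {Df : E → E →L[ℝ] E}
    (hf : MemSobolev p U f Df) : WeakOn volume U (disp U f) (dispD U Df) := by
  obtain ⟨hfL, hDfL, hw⟩ := hf
  have hp1 : (1 : ℝ≥0∞) ≤ ENNReal.ofReal p := by simpa using ENNReal.ofReal_le_ofReal hp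
  have hfin : IsFiniteMeasure (volume.restrict U) :=
    ⟨by rw [Measure.restrict_apply_univ]; exact hUb.measure_lt_top⟩
  intro ψ hψ hψc hψs v
  have hid := (memSobolev_of_smooth hp hU hUb (F := fun x : E => x) contDiff_id).2.2
    ψ ⟨hψ, hψc, hψs⟩ v
  have hfw := hw ψ ⟨hψ, hψc, hψs⟩ v
  have hψ1 : Continuous fun x => fderiv ℝ ψ x v :=
    (hψ.continuous_fderiv (by simp)).clm_apply continuous_const
  have hψ1c : HasCompactSupport fun x => fderiv ℝ ψ x v := by
    have := hψc.fderiv ℝ
    exact this.comp_left (g := fun L : E →L[ℝ] ℝ => L v) (by simp)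
  have hfi : Integrable f (volume.restrict U) := hfL.integrable hp1
  have hDfi : Integrable Df (volume.restrict U) := hDfL.integrable hp1
  have hDfvi : Integrable (fun x => Df x v) (volume.restrict U) :=
    ((ContinuousLinearMap.apply ℝ E v).integrable_comp hDfi)
  obtain ⟨C1, hC1⟩ := hψ1c.exists_bound_of_continuous hψ1
  obtain ⟨C0, hC0⟩ := hψc.exists_bound_of_continuous hψ.continuous
  have i1 : Integrable (fun x => (fderiv ℝ ψ x v) • f x) (volume.restrict U) :=
    hfi.bdd_smul C1 hψ1.aestronglyMeasurable (Eventually.of_forall hC1)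
  have i2 : Integrable (fun x => (fderiv ℝ ψ x v) • x) (volume.restrict U) :=
    ((hψ1.smul continuous_id).integrable_of_hasCompactSupport hψ1c.smul_right).restrict
  have i3 : Integrable (fun x => ψ x • Df x v) (volume.restrict U) :=
    hDfvi.bdd_smul C0 hψ.continuous.aestronglyMeasurable (Eventually.of_forall hC0)
  have i4 : Integrable (fun x => ψ x • v) (volume.restrict U) :=
    ((hψ.continuous.smul continuous_const).integrable_of_hasCompactSupport hψc.smul_right).restrict
  have e1 : ∫ x, (fderiv ℝ ψ x v) • disp U f x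
      = ∫ x in U, ((fderiv ℝ ψ x v) • f x - (fderiv ℝ ψ x v) • x) := by
    rw [← integral_indicator hU.measurableSet]
    refine integral_congr_ae (Eventually.of_forall fun x => ?_)
    by_cases hx : x ∈ U
    · simp [disp, indicator_of_mem hx, smul_sub]
    · simp [disp, indicator_of_notMem hx]
  have e2 : ∫ x, ψ x • dispD U Df x v = ∫ x in U, (ψ x • Df x v - ψ x • v) := by
    rw [← integral_indicator hU.measurableSet]
    refine integral_congr_ae (Eventually.of_forall fun x => ?_)
    by_cases hx : x ∈ U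
    · simp [dispD, indicator_of_mem hx, smul_sub]
    · simp [dispD, indicator_of_notMem hx]
  rw [e1, e2, integral_sub i1 i2, integral_sub i3 i4, hfw, hid]
  simp
  abel

lemma eLpNorm_sub_smul_le {V : Type*} [NormedAddCommGroup V] [NormedSpace ℝ V] {X Y : E → V}
    (hX : AEStronglyMeasurable X volume) (hY : AEStronglyMeasurable Y volume) {P : ℝ≥0∞}
    (hP : 1 ≤ P) (δ : ℝ) (hδ : 0 ≤ δ) :
    eLpNorm (X - δ • Y) P volume ≤ eLpNorm X P volume + ENNReal.ofReal δ * eLpNorm Y P volume := by
  refine (eLpNorm_sub_le hX (hY.const_smul δ) hP).trans ?_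
  rw [eLpNorm_const_smul, Real.enorm_eq_ofReal hδ]

lemma isDiffeoOn_of_global {U K' : Set E} (hK'U : K' ⊆ U) {F G : E → E}
    (hF : ContDiff ℝ ∞ F) (hG : ContDiff ℝ ∞ G) (hGF : ∀ x, G (F x) = x) (hFG : ∀ y, F (G y) = y)
    (hid : ∀ x, x ∉ K' → F x = x) : IsDiffeoOn U U F := by
  refine ⟨hF.contDiffOn, G, hG.contDiffOn, ?_, ?_, fun x _ => hGF x, fun y _ => hFG y⟩
  · intro x hx
    by_contra hFx
    have h1 : F (F x) = F x := hid _ fun h => hFx (hK'U h)
    have h2 : F x = x := by
      have := congrArg G h1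
      rwa [hGF, hGF] at this
    rw [h2] at hFx
    exact hFx hx
  · intro y hy
    by_contra hGy
    have h1 : F (G y) = G y := hid _ fun h => hGy (hK'U h)
    rw [hFG] at h1
    rw [← h1] at hGy
    exact hGy hy

end Vale.Agent.P073
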