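import Mathlib

set_option linter.unusedSectionVars false

open Set Filter Topology

namespace Vale.Agent.P073

variable {E : Type*} [NormedAddCommGroup E] [InnerProductSpace ℝ E] [FiniteDimensional ℝ E]

/-- linear maps with `c |ξ|^2 ≤ ⟨A ξ, ξ⟩` -/
def monoCone (E : Type*) [NormedAddCommGroup E] [InnerProductSpace ℝ E] (c : ℝ) :
    Set (E →L[ℝ] E) := {A | ∀ ξ : E, c * ‖ξ‖ ^ 2 ≤ inner ℝ (A ξ) ξ}

lemma monoCone_convex (c : ℝ) : Convex ℝ (monoCone E c) := by
  intro A hA B hB a b ha hb hab ξ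
  have h1 := mul_le_mul_of_nonneg_left (hA ξ) ha
  have h2 := mul_le_mul_of_nonneg_left (hB ξ) hb
  simp only [add_apply, smul_apply, inner_add_left, inner_smul_left]
  simp only [conj_trivial]
  calc c * ‖ξ‖ ^ 2 = a * (c * ‖ξ‖ ^ 2) + b * (c * ‖ξ‖ ^ 2) := by rw [← add_mul, hab, one_mul]
    _ ≤ _ := add_le_add h1 h2

lemma monoCone_closed (c : ℝ) : IsClosed (monoCone E c) := by
  have : monoCone E c = ⋂ ξ : E, {A : E →L[ℝ] E | c * ‖ξ‖ ^ 2 ≤ inner ℝ (A ξ) ξ} := by
    ext A; simp [monoCone]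
  rw [this]
  refine isClosed_iInter fun ξ => isClosed_le continuous_const ?_
  exact ((ContinuousLinearMap.apply ℝ E ξ).continuous).inner continuous_const

lemma one_mem_monoCone : (1 : E →L[ℝ] E) ∈ monoCone E 0 := by
  intro ξ
  simp

lemma isInvertible_of_pos {B : E →L[ℝ] E} {c : ℝ} (hc : 0 < c) (hB : B ∈ monoCone E c) :
    B.IsInvertible := by
  have hinj : Function.Injective B.toLinearMap := by
    rw [← LinearMap.ker_eq_bot, LinearMap.ker_eq_bot']
    intro ξ hξ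
    have h1 := hB ξ
    have h2 : B ξ = 0 := hξ
    rw [h2, inner_zero_left] at h1
    have h3 : ‖ξ‖ ^ 2 ≤ 0 := by nlinarith
    have h4 : ‖ξ‖ = 0 := by nlinarith [norm_nonneg ξ]
    exact norm_eq_zero.1 h4
  refine ⟨(LinearEquiv.ofInjectiveEndo B.toLinearMap hinj).toContinuousLinearEquiv, ?_⟩
  ext ξ
  simp

lemma monoCone_inv (A : E →L[ℝ] E) (hA : A ∈ monoCone E 0) (δ : ℝ) (h0 : 0 < δ) (h1 : δ ≤ 1) :
    ((1 - δ) • A + δ • (1 : E →L[ℝ] E)).IsInvertible := by
  refine isInvertible_of_pos h0 ?_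
  intro ξ
  have h2 := hA ξ
  simp only [add_apply, smul_apply, inner_add_left, inner_smul_left, one_apply_eq_self]
  simp only [conj_trivial, real_inner_self_eq_norm_sq]
  have h3 : 0 ≤ (1 - δ) * inner ℝ (A ξ) ξ := mul_nonneg (by linarith) (by simpa using h2)
  linarith

end Vale.Agent.P073
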