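import Mathlib
import Vale.Agent.P073.Assemble

set_option linter.unusedSectionVars false
set_option linter.unusedVariables false

open MeasureTheory Set Filter Topology ContinuousLinearMap
open scoped ENNReal Convolution ContDiff

namespace Vale.Agent.P073

variable {E : Type*} [NormedAddCommGroup E] [InnerProductSpace ℝ E] [FiniteDimensional ℝ E]
  [MeasurableSpace E] [BorelSpace E]

/-- the error integral is controlled by the two `L^p` norms -/
lemma error_le {p : ℝ} (hp : 1 ≤ p) {U : Set E} (hU : IsOpen U) {F f : E → E}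
    {DF Df : E → E →L[ℝ] E} {X : E → E} {Y : E → E →L[ℝ] E}
    (hX : ∀ x ∈ U, F x - f x = X x) (hY : ∀ x ∈ U, DF x - Df x = Y x)
    (hXm : AEStronglyMeasurable X volume) :
    ∫⁻ x in U, ENNReal.ofReal (‖F x - f x‖ ^ p + frobNorm (DF x - Df x) ^ p)
      ≤ eLpNorm X (ENNReal.ofReal p) volume ^ p
        + ENNReal.ofReal (frobC E ^ p) * eLpNorm Y (ENNReal.ofReal p) volume ^ p := by
  have hp0 : 0 < p := by linarith
  have e : ∀ {V : Type _} [NormedAddCommGroup V] (Z : E → V),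
      eLpNorm Z (ENNReal.ofReal p) volume ^ p = ∫⁻ x, ‖Z x‖ₑ ^ p := by
    intro V _ Z
    rw [eLpNorm_eq_lintegral_rpow_enorm_toReal (by simpa using hp0) ENNReal.ofReal_ne_top,
      ENNReal.toReal_ofReal hp0.le, ← ENNReal.rpow_mul, one_div, inv_mul_cancel₀ hp0.ne',
      ENNReal.rpow_one]
  rw [e X, e Y]
  have hpt : ∀ x ∈ U, ENNReal.ofReal (‖F x - f x‖ ^ p + frobNorm (DF x - Df x) ^ p)
      ≤ ‖X x‖ₑ ^ p + ENNReal.ofReal (frobC E ^ p) * ‖Y x‖ₑ ^ p := by
    intro x hx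
    rw [hX x hx, hY x hx, ENNReal.ofReal_add (by positivity)
      (Real.rpow_nonneg (frobNorm_nonneg _) _)]
    have h1 : ENNReal.ofReal (‖X x‖ ^ p) = ‖X x‖ₑ ^ p := by
      rw [← ENNReal.ofReal_rpow_of_nonneg (norm_nonneg _) hp0.le, ofReal_norm]
    have h2 : ENNReal.ofReal (frobNorm (Y x) ^ p) ≤ ENNReal.ofReal (frobC E ^ p) * ‖Y x‖ₑ ^ p := by
      have h3 : frobNorm (Y x) ^ p ≤ frobC E ^ p * ‖Y x‖ ^ p := by
        rw [← Real.mul_rpow frobC_nonneg (norm_nonneg _)]
        exact Real.rpow_le_rpow (frobNorm_nonneg _) (frobNorm_le _) hp0.le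
      calc ENNReal.ofReal (frobNorm (Y x) ^ p) ≤ ENNReal.ofReal (frobC E ^ p * ‖Y x‖ ^ p) :=
            ENNReal.ofReal_le_ofReal h3
        _ = ENNReal.ofReal (frobC E ^ p) * ‖Y x‖ₑ ^ p := by
            rw [ENNReal.ofReal_mul (Real.rpow_nonneg frobC_nonneg _),
              ← ENNReal.ofReal_rpow_of_nonneg (norm_nonneg _) hp0.le, ofReal_norm]
    rw [h1]
    gcongr
  calc ∫⁻ x in U, ENNReal.ofReal (‖F x - f x‖ ^ p + frobNorm (DF x - Df x) ^ p)
      ≤ ∫⁻ x in U, (‖X x‖ₑ ^ p + ENNReal.ofReal (frobC E ^ p) * ‖Y x‖ₑ ^ p) :=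
        setLIntegral_mono' hU.measurableSet hpt
    _ ≤ ∫⁻ x, (‖X x‖ₑ ^ p + ENNReal.ofReal (frobC E ^ p) * ‖Y x‖ₑ ^ p) := setLIntegral_le_lintegral _ _
    _ = (∫⁻ x, ‖X x‖ₑ ^ p) + ∫⁻ x, ENNReal.ofReal (frobC E ^ p) * ‖Y x‖ₑ ^ p :=
        lintegral_add_left' (hXm.enorm.pow_const p) _
    _ = _ := by rw [lintegral_const_mul' _ _ ENNReal.ofReal_ne_top]

theorem exists_approximant {p : ℝ} (hp : 1 ≤ p) {U : Set E} (hU : IsOpen U)
    (hUb : Bornology.IsBounded U) {f : E → E} {Df : E → E →L[ℝ] E}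
    (hfc : ContinuousOn f U) (hf : MemSobolev p U f Df)
    {K : Set E} (hK : IsCompact K) (hKU : K ⊆ U) (hid : ∀ x ∈ U \ K, f x = x)
    {KK : Set (E →L[ℝ] E)} (hconv : Convex ℝ KK) (hclosed : IsClosed KK)
    (h1 : (1 : E →L[ℝ] E) ∈ KK)
    (hinv : ∀ A ∈ KK, ∀ δ : ℝ, 0 < δ → δ ≤ 1 →
      ((1 - δ) • A + δ • (1 : E →L[ℝ] E)).IsInvertible)
    (hmem : ∀ᵐ x ∂(volume.restrict U), Df x ∈ KK) {η : ℝ≥0∞} (hη : η ≠ 0) :
    ∃ F : E → E, IsDiffeoOn U U F ∧ MemSobolev p U F (fderiv ℝ F) ∧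
      ∫⁻ x in U, ENNReal.ofReal (‖F x - f x‖ ^ p + frobNorm (fderiv ℝ F x - Df x) ^ p)
        ≤ η ^ p + ENNReal.ofReal (frobC E ^ p) * η ^ p := by
  have hp0 : 0 < p := by linarith
  have hp1 : (1 : ℝ≥0∞) ≤ ENNReal.ofReal p := by simpa using ENNReal.ofReal_le_ofReal hp
  set u := disp U f with hu
  set H := dispD U Df with hH
  have hu0 : ∀ x, x ∉ K → u x = 0 := disp_eq_zero hid
  have huc : Continuous u := disp_continuous hU hK hKU hfc hid
  have hucs : HasCompactSupport u := HasCompactSupport.intro hK hu0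
  have huL : MemLp u (ENNReal.ofReal p) volume := huc.memLp_of_hasCompactSupport hucs
  have hHL : MemLp H (ENNReal.ofReal p) volume := dispD_memLp hU hUb hf.2.1
  have hHi : LocallyIntegrable H volume := hHL.locallyIntegrable hp1
  have hH0 : ∀ x, x ∉ U → H x = 0 := fun x hx => indicator_of_notMem hx _
  have hw : WeakOn volume U u H := disp_weakOn hp hU hUb hf
  have hHmem : ∀ᵐ y ∂(volume : Measure E), (1 : E →L[ℝ] E) + H y ∈ KK := dispD_mem hU h1 hmem
  obtain ⟨δ0, hδ0, hδ0U⟩ := hK.exists_cthickening_subset_open hU hKU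
  set r := δ0 / 2 with hr
  have hr0 : 0 < r := by positivity
  have h2r : Metric.cthickening (2 * r) K ⊆ U := by
    have : 2 * r = δ0 := by rw [hr]; ring
    rw [this]; exact hδ0U
  set K' := Metric.cthickening r K with hK'
  have hK'c : IsCompact K' := hK.cthickening
  have hK'U : K' ⊆ U := (Metric.cthickening_mono (by linarith) K).trans h2r
  have hη2 : η / 2 ≠ 0 := by simp [hη]
  obtain ⟨du, hdu0, hdu⟩ := exists_delta_eLpNorm_conv_sub_le (μ := volume) hp huL hη2
  obtain ⟨dH, hdH0, hdH⟩ := exists_delta_eLpNorm_conv_sub_le (μ := volume) hp hHL hη2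
  obtain ⟨nu, hnu0, hnu⟩ := ENNReal.exists_nnreal_pos_mul_lt huL.2.ne hη2
  obtain ⟨nH, hnH0, hnH⟩ := ENNReal.exists_nnreal_pos_mul_lt hHL.2.ne hη2
  set ρ := min r (min du dH) / 2 with hρ
  have hm0 : 0 < min r (min du dH) := lt_min hr0 (lt_min hdu0 hdH0)
  have hρ0 : 0 < ρ := by positivity
  have hρr : ρ ≤ r := by
    have := min_le_left r (min du dH); rw [hρ]; linarith
  have hρu : ρ < du := by
    have := (min_le_right r (min du dH)).trans (min_le_left du dH); rw [hρ]; linarith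
  have hρH : ρ < dH := by
    have := (min_le_right r (min du dH)).trans (min_le_right du dH); rw [hρ]; linarith
  let φ : ContDiffBump (0 : E) := ⟨ρ / 2, ρ, by positivity, by linarith⟩
  have hφr : φ.rOut ≤ r := hρr
  set δ : ℝ := min 1 (min nu nH) with hδ
  have hδ0' : 0 < δ := lt_min one_pos (lt_min (by exact_mod_cast hnu0) (by exact_mod_cast hnH0))
  have hδ1 : δ ≤ 1 := min_le_left _ _
  have hδu : ENNReal.ofReal δ ≤ nu := by
    rw [← ENNReal.ofReal_coe_nnreal]
    exact ENNReal.ofReal_le_ofReal ((min_le_right _ _).trans (min_le_left _ _))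
  have hδH : ENNReal.ofReal δ ≤ nH := by
    rw [← ENNReal.ofReal_coe_nnreal]
    exact ENNReal.ofReal_le_ofReal ((min_le_right _ _).trans (min_le_right _ _))
  set w := φ.normed volume ⋆[lsmul ℝ ℝ, volume] u with hwdef
  set Hc := φ.normed volume ⋆[lsmul ℝ ℝ, volume] H with hHc
  have hws : ContDiff ℝ ∞ w :=
    φ.hasCompactSupport_normed.contDiff_convolution_left _ φ.contDiff_normed huc.locallyIntegrable
  have hwd : ∀ x, HasFDerivAt w (Hc x) x :=
    hasFDerivAt_conv hU hK hu0 huc hH0 hHi hw h2r φ hφr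
  have hwK : ∀ x, x ∉ K' → w x = 0 := fun x hx => conv_eq_zero_off hu0 φ hφr hx
  have hD : ∀ x, (1 : E →L[ℝ] E) + fderiv ℝ w x ∈ KK := by
    intro x
    rw [(hwd x).fderiv]
    exact one_add_conv_mem hHi hconv hclosed hHmem φ x
  obtain ⟨G, hGs, hGF, hFG⟩ := exists_smooth_inverse hws hK'c hwK hconv hclosed hinv hD hδ0' hδ1
  set F : E → E := fun x => x + (1 - δ) • w x with hF
  have hFs : ContDiff ℝ ∞ F := contDiff_id.add (hws.const_smul (1 - δ))
  have hFd : ∀ x, fderiv ℝ F x = 1 + (1 - δ) • Hc x := by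
    intro x
    have h3 : HasFDerivAt F ((ContinuousLinearMap.id ℝ E) + (1 - δ) • Hc x) x :=
      (hasFDerivAt_id x).add ((hwd x).const_smul (1 - δ))
    rw [h3.fderiv]; rfl
  refine ⟨F, isDiffeoOn_of_global hK'U hFs hGs hGF hFG (fun x hx => by simp [hF, hwK x hx]),
    memSobolev_of_smooth hp hU hUb hFs, ?_⟩
  have hwm : AEStronglyMeasurable w volume := hws.continuous.aestronglyMeasurable
  have hHcm : AEStronglyMeasurable Hc volume := (continuous_conv φ hHi).aestronglyMeasurable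
  have hX : ∀ x ∈ U, F x - f x = ((w - u) - δ • w) x := by
    intro x hx
    simp only [hF, hu, disp, indicator_of_mem hx, Pi.sub_apply, Pi.smul_apply, sub_smul, one_smul]
    abel
  have hY : ∀ x ∈ U, fderiv ℝ F x - Df x = ((Hc - H) - δ • Hc) x := by
    intro x hx
    rw [hFd x]
    simp only [hH, dispD, indicator_of_mem hx, Pi.sub_apply, Pi.smul_apply]
    module
  have hXm : AEStronglyMeasurable ((w - u) - δ • w) volume :=
    (hwm.sub huc.aestronglyMeasurable).sub (hwm.const_smul δ)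
  refine (error_le hp hU hX hY hXm).trans ?_
  have bX : eLpNorm ((w - u) - δ • w) (ENNReal.ofReal p) volume ≤ η := by
    refine (eLpNorm_sub_smul_le (hwm.sub huc.aestronglyMeasurable) hwm hp1 δ hδ0'.le).trans ?_
    calc eLpNorm (w - u) (ENNReal.ofReal p) volume
          + ENNReal.ofReal δ * eLpNorm w (ENNReal.ofReal p) volume
        ≤ η / 2 + nu * eLpNorm u (ENNReal.ofReal p) volume := by
          gcongr
          · exact hdu φ hρu
          · exact eLpNorm_conv_le φ huc.aestronglyMeasurable hp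
      _ ≤ η / 2 + η / 2 := by gcongr
      _ = η := ENNReal.add_halves η
  have bY : eLpNorm ((Hc - H) - δ • Hc) (ENNReal.ofReal p) volume ≤ η := by
    refine (eLpNorm_sub_smul_le (hHcm.sub hHL.1) hHcm hp1 δ hδ0'.le).trans ?_
    calc eLpNorm (Hc - H) (ENNReal.ofReal p) volume
          + ENNReal.ofReal δ * eLpNorm Hc (ENNReal.ofReal p) volume
        ≤ η / 2 + nH * eLpNorm H (ENNReal.ofReal p) volume := by
          gcongr
          · exact hdH φ hρH
          · exact eLpNorm_conv_le φ hHL.1 hp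
      _ ≤ η / 2 + η / 2 := by gcongr
      _ = η := ENNReal.add_halves η
  gcongr

end Vale.Agent.P073
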